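import Vale.Agent.P252.H521.Mat
import Mathlib.Analysis.Calculus.Deriv.Prod

/-! Matrix valued curves with constant determinant. -/

open Matrix Filter
open scoped Topology

namespace Vale.Agent.P252.H521

variable {n : ℕ}

theorem sum_updateCol_eq (X Y : Matrix (Fin n) (Fin n) ℝ) :
    ∑ σ : Equiv.Perm (Fin n), (Equiv.Perm.sign σ : ℤ) •
      ∑ i, (∏ j ∈ Finset.univ.erase i, X (σ j) j) * Y (σ i) i =
      (X.adjugate * Y).trace := by
  simp only [Finset.smul_sum]
  rw [Finset.sum_comm]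
  rw [Matrix.trace]
  refine Finset.sum_congr rfl fun i _ => ?_
  have h1 : (X.adjugate * Y).diag i = (X.updateCol i (fun j => Y j i)).det := by
    rw [← Matrix.cramer_apply, Matrix.cramer_eq_adjugate_mulVec]
    simp only [diag, Matrix.mul_apply, mulVec, dotProduct]
  rw [h1, Matrix.det_apply]
  refine Finset.sum_congr rfl fun σ _ => ?_
  have : ∏ k, (X.updateCol i (fun j => Y j i)) (σ k) k =
      (∏ j ∈ Finset.univ.erase i, X (σ j) j) * Y (σ i) i := by
    rw [← Finset.prod_erase_mul Finset.univ _ (Finset.mem_univ i)]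
    congr 1
    · refine Finset.prod_congr rfl fun j hj => ?_
      rw [Matrix.updateCol_ne (Finset.ne_of_mem_erase hj)]
    · simp
  rw [this]
  rfl

/-- Jacobi's formula. -/
theorem hasDerivAt_det {N : ℝ → Matrix (Fin n) (Fin n) ℝ} {N' : Matrix (Fin n) (Fin n) ℝ} {t : ℝ}
    (hN : ∀ i j, HasDerivAt (fun s => N s i j) (N' i j) t) :
    HasDerivAt (fun t => (N t).det) ((N t).adjugate * N').trace t := by
  rw [← sum_updateCol_eq]
  have h1 : ∀ t, (N t).det =
      ∑ σ : Equiv.Perm (Fin n), (Equiv.Perm.sign σ : ℤ) • ∏ i, N t (σ i) i := by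
    intro t
    rw [Matrix.det_apply]
    rfl
  simp only [h1]
  refine HasDerivAt.fun_sum (fun σ _ => ?_)
  have h2 := HasDerivAt.fun_finsetProd (u := Finset.univ) (x := t)
    (f := fun i t => N t (σ i) i) (f' := fun i => N' (σ i) i) (fun i _ => hN (σ i) i)
  simp only [smul_eq_mul] at h2
  exact h2.const_smul ((Equiv.Perm.sign σ : ℤ))

theorem hasDerivAt_mul {X Y : ℝ → Matrix (Fin n) (Fin n) ℝ} {X' Y' : Matrix (Fin n) (Fin n) ℝ}
    {t : ℝ} (hX : ∀ i j, HasDerivAt (fun t => X t i j) (X' i j) t)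
    (hY : ∀ i j, HasDerivAt (fun t => Y t i j) (Y' i j) t) (i j : Fin n) :
    HasDerivAt (fun t => (X t * Y t) i j) ((X' * Y t + X t * Y') i j) t := by
  simp only [Matrix.mul_apply, Matrix.add_apply]
  rw [← Finset.sum_add_distrib]
  exact HasDerivAt.fun_sum fun k _ => (hX i k).mul (hY k j)

theorem inv_entry_differentiable {X : ℝ → Matrix (Fin n) (Fin n) ℝ}
    {X' : Matrix (Fin n) (Fin n) ℝ} {t : ℝ}
    (hX : ∀ i j, HasDerivAt (fun t => X t i j) (X' i j) t) (hdet : (X t).det ≠ 0) (i j : Fin n) :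
    DifferentiableAt ℝ (fun t => (X t)⁻¹ i j) t := by
  have h1 : (fun x => (X x)⁻¹ i j) = fun x => ((X x).det)⁻¹ * (X x).adjugate i j := by
    funext x
    rw [Matrix.inv_def, Ring.inverse_eq_inv', Matrix.smul_apply, smul_eq_mul]
  rw [h1]
  refine ((hasDerivAt_det hX).differentiableAt.inv hdet).mul ?_
  simp only [Matrix.adjugate_apply]
  have h2 : ∀ k l, HasDerivAt (fun t => (X t).updateRow j (Pi.single i 1) k l)
      ((X'.updateRow j 0) k l) t := by
    intro k l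
    by_cases hk : k = j
    · subst hk
      simp only [Matrix.updateRow_self]
      exact hasDerivAt_const _ _
    · simp only [Matrix.updateRow_ne hk]
      exact hX k l
  exact (hasDerivAt_det h2).differentiableAt

theorem hasDerivAt_inv {X : ℝ → Matrix (Fin n) (Fin n) ℝ} {X' : Matrix (Fin n) (Fin n) ℝ} {t : ℝ}
    (hX : ∀ i j, HasDerivAt (fun t => X t i j) (X' i j) t) (hdet : (X t).det ≠ 0) (i j : Fin n) :
    HasDerivAt (fun t => (X t)⁻¹ i j) ((-((X t)⁻¹ * X' * (X t)⁻¹)) i j) t := by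
  have hne : ∀ᶠ s in 𝓝 t, (X s).det ≠ 0 :=
    (hasDerivAt_det hX).continuousAt.eventually_ne hdet
  set W : Matrix (Fin n) (Fin n) ℝ := fun i j => deriv (fun t => (X t)⁻¹ i j) t with hW
  have hW' : ∀ i j, HasDerivAt (fun t => (X t)⁻¹ i j) (W i j) t := fun i j =>
    (inv_entry_differentiable hX hdet i j).hasDerivAt
  have h5 : X' * (X t)⁻¹ + X t * W = 0 := by
    ext k l
    have h6 := hasDerivAt_mul hX hW' k l
    have h7 : HasDerivAt (fun t => (X t * (X t)⁻¹) k l) 0 t := by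
      refine (hasDerivAt_const t ((1 : Matrix (Fin n) (Fin n) ℝ) k l)).congr_of_eventuallyEq ?_
      filter_upwards [hne] with s hs
      rw [Matrix.mul_nonsing_inv _ (isUnit_iff_ne_zero.2 hs)]
    rw [h6.unique h7]
    rfl
  have h8 : W = -((X t)⁻¹ * X' * (X t)⁻¹) := by
    have h9 : (X t)⁻¹ * (X' * (X t)⁻¹ + X t * W) = 0 := by rw [h5, Matrix.mul_zero]
    rw [Matrix.mul_add, ← Matrix.mul_assoc, ← Matrix.mul_assoc,
      Matrix.nonsing_inv_mul _ (isUnit_iff_ne_zero.2 hdet), Matrix.one_mul] at h9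
    exact eq_neg_of_add_eq_zero_right h9
  rw [← h8]
  exact hW' i j

/-- First and second order identities for a matrix curve with constant determinant. -/
theorem curve_trace {A A1 : ℝ → Matrix (Fin n) (Fin n) ℝ} {A2 : Matrix (Fin n) (Fin n) ℝ}
    (h1 : ∀ᶠ t in 𝓝 (0 : ℝ), ∀ i j, HasDerivAt (fun s => A s i j) (A1 t i j) t)
    (h2 : ∀ i j, HasDerivAt (fun s => A1 s i j) (A2 i j) 0) {c : ℝ} (hc : c ≠ 0)
    (hdet : ∀ᶠ t in 𝓝 (0 : ℝ), (A t).det = c) :
    ((A 0)⁻¹ * A1 0).trace = 0 ∧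
      ((A 0)⁻¹ * A2).trace = ((A 0)⁻¹ * A1 0 * (A 0)⁻¹ * A1 0).trace := by
  have h3 : ∀ᶠ t in 𝓝 (0 : ℝ), ((A t)⁻¹ * A1 t).trace = 0 := by
    filter_upwards [h1, hdet.eventually_nhds] with t ht1 ht2
    have e1 := hasDerivAt_det ht1
    have e2 : HasDerivAt (fun t => (A t).det) 0 t :=
      (hasDerivAt_const t c).congr_of_eventuallyEq ht2
    have e3 := e1.unique e2
    have e4 : (A t).det = c := ht2.self_of_nhds
    have e5 : (A t)⁻¹ = c⁻¹ • (A t).adjugate := by
      rw [Matrix.inv_def, Ring.inverse_eq_inv', e4]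
    rw [e5, Matrix.smul_mul, Matrix.trace_smul, e3, smul_zero]
  have h4 : ((A 0)⁻¹ * A1 0).trace = 0 := h3.self_of_nhds
  refine ⟨h4, ?_⟩
  have h10 := h1.self_of_nhds
  have hd0 : (A 0).det ≠ 0 := by rw [hdet.self_of_nhds]; exact hc
  have h5 : HasDerivAt (fun t => ((A t)⁻¹ * A1 t).trace)
      (-((A 0)⁻¹ * A1 0 * (A 0)⁻¹) * A1 0 + (A 0)⁻¹ * A2).trace 0 := by
    simp only [Matrix.trace, Matrix.diag]
    exact HasDerivAt.fun_sum fun i _ => hasDerivAt_mul (hasDerivAt_inv h10 hd0) h2 i i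
  have h6 : HasDerivAt (fun t => ((A t)⁻¹ * A1 t).trace) 0 0 :=
    (hasDerivAt_const (0 : ℝ) (0 : ℝ)).congr_of_eventuallyEq h3
  have h7 := h5.unique h6
  rw [Matrix.trace_add, Matrix.neg_mul, Matrix.trace_neg] at h7
  linarith

end Vale.Agent.P252.H521
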