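import Vale.Agent.P252.H521.Mat
import Mathlib.Analysis.Matrix.Spectrum

/-! A lower bound of a positive definite matrix from an upper bound and its determinant. -/

open Matrix

namespace Vale.Agent.P252.H521

variable {n : ℕ}

lemma exists_diag {M : Matrix (Fin n) (Fin n) ℝ} (hM : M.IsHermitian) :
    ∃ U : Matrix (Fin n) (Fin n) ℝ, Uᵀ * U = 1 ∧ U * Uᵀ = 1 ∧
      M = U * Matrix.diagonal hM.eigenvalues * Uᵀ := by
  refine ⟨(hM.eigenvectorUnitary : Matrix (Fin n) (Fin n) ℝ), ?_, ?_, ?_⟩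
  · have := (Matrix.mem_unitaryGroup_iff').1 hM.eigenvectorUnitary.2
    rwa [Matrix.star_eq_conjTranspose, Matrix.conjTranspose_eq_transpose_of_trivial] at this
  · have := (Matrix.mem_unitaryGroup_iff).1 hM.eigenvectorUnitary.2
    rwa [Matrix.star_eq_conjTranspose, Matrix.conjTranspose_eq_transpose_of_trivial] at this
  · have h := hM.spectral_theorem
    rw [Unitary.conjStarAlgAut_apply] at h
    rw [Matrix.star_eq_conjTranspose, Matrix.conjTranspose_eq_transpose_of_trivial] at h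
    exact h

/-- If `M ≤ K` and `c ≤ det M` then `c / K^(n-1) ≤ M`. -/
theorem lower_of_det {M : Matrix (Fin n) (Fin n) ℝ} (hM : M.PosDef) {K c : ℝ}
    (hform : ∀ w : Fin n → ℝ, w ⬝ᵥ M *ᵥ w ≤ K * (w ⬝ᵥ w)) (hK : 0 < K) (hdet : c ≤ M.det)
    (w : Fin n → ℝ) : c / K ^ (n - 1) * (w ⬝ᵥ w) ≤ w ⬝ᵥ M *ᵥ w := by
  obtain ⟨U, h1, h2, h3⟩ := exists_diag hM.1
  set L := hM.1.eigenvalues with hL
  have hform' : ∀ z : Fin n → ℝ, (U *ᵥ z) ⬝ᵥ M *ᵥ (U *ᵥ z) = ∑ i, L i * z i ^ 2 := by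
    intro z
    have e1 : M *ᵥ (U *ᵥ z) = U *ᵥ (Matrix.diagonal L *ᵥ z) := by
      nth_rewrite 1 [h3]
      rw [Matrix.mulVec_mulVec, Matrix.mul_assoc, h1, Matrix.mul_one, ← Matrix.mulVec_mulVec]
    rw [e1, Matrix.dotProduct_mulVec, ← Matrix.mulVec_transpose, Matrix.mulVec_mulVec, h1,
      Matrix.one_mulVec]
    simp only [dotProduct, Matrix.mulVec_diagonal]
    exact Finset.sum_congr rfl fun i _ => by ring
  have hnorm : ∀ z : Fin n → ℝ, (U *ᵥ z) ⬝ᵥ (U *ᵥ z) = ∑ i, z i ^ 2 := by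
    intro z
    rw [Matrix.dotProduct_mulVec, ← Matrix.mulVec_transpose, Matrix.mulVec_mulVec, h1,
      Matrix.one_mulVec]
    simp only [dotProduct]
    exact Finset.sum_congr rfl fun i _ => by ring
  have hLK : ∀ i, L i ≤ K := by
    intro i
    have := hform (U *ᵥ (Pi.single i 1))
    rw [hform', hnorm] at this
    simpa [Pi.single_apply, Finset.sum_ite_eq] using this
  have hL0 : ∀ i, 0 < L i := fun i => hM.eigenvalues_pos i
  have hprod : ∏ i, L i = M.det := by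
    rw [hM.1.det_eq_prod_eigenvalues]
    rfl
  have hlow : ∀ i, c / K ^ (n - 1) ≤ L i := by
    intro i
    rw [div_le_iff₀ (by positivity)]
    have e1 : M.det = L i * ∏ j ∈ Finset.univ.erase i, L j := by
      rw [← hprod, Finset.mul_prod_erase _ _ (Finset.mem_univ i)]
    have e2 : ∏ j ∈ Finset.univ.erase i, L j ≤ K ^ (n - 1) := by
      have h4 : ∏ j ∈ Finset.univ.erase i, L j ≤ ∏ _j ∈ Finset.univ.erase i, K :=
        Finset.prod_le_prod (fun j _ => (hL0 j).le) (fun j _ => hLK j)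
      rw [Finset.prod_const, Finset.card_erase_of_mem (Finset.mem_univ i), Finset.card_univ,
        Fintype.card_fin] at h4
      exact h4
    calc c ≤ M.det := hdet
      _ = L i * ∏ j ∈ Finset.univ.erase i, L j := e1
      _ ≤ L i * K ^ (n - 1) := mul_le_mul_of_nonneg_left e2 (hL0 i).le
  have hw : U *ᵥ (Uᵀ *ᵥ w) = w := by rw [Matrix.mulVec_mulVec, h2, Matrix.one_mulVec]
  rw [← hw, hform', hnorm, Finset.mul_sum]
  exact Finset.sum_le_sum fun i _ => mul_le_mul_of_nonneg_right (hlow i) (sq_nonneg _)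

end Vale.Agent.P252.H521
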