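import Vale.Agent.P252.R.Spec
import Vale.Agent.P252.R.Sections
import Vale.Agent.P252.R.Common
import Vale.Agent.P252.H338.Core1
import Vale.Agent.P252.H474.John
import Vale.Agent.P252.H474.Trans

/-! Normalisation of a section of height `2t`, in the form `NF` of `H338/Core1`. -/

open Matrix Filter Set MeasureTheory
open scoped Topology ContDiff

namespace Vale.Agent.P252.H521

open Vale.Agent.P252.R Vale.Agent.P252.H474

variable {n : ℕ}

/-- the linear part of the normalised section -/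
noncomputable def nfLin (u : En n → ℝ) (a : En n) (s : ℝ) (A : En n ≃L[ℝ] En n) :
    En n →L[ℝ] ℝ :=
  (-(1 / s)) • ((fderiv ℝ u a).comp (A : En n →L[ℝ] En n))

lemma nf_eq_chg (u : En n → ℝ) (a p : En n) (s : ℝ) (A : En n ≃L[ℝ] En n) :
    (fun x => brg u a (p + A x) / s) =
      chg u (1 / s) p A (nfLin u a s A) (-(1 / s) * (u a + fderiv ℝ u a (p - a))) := by
  funext x
  have h1 : fderiv ℝ u a (p + A x - a) = fderiv ℝ u a (A x) + fderiv ℝ u a (p - a) := by
    rw [← map_add]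
    congr 1
    abel
  simp only [brg_eq_tilt, tilt, chg, nfLin, h1]
  simp only [_root_.smul_apply, ContinuousLinearMap.comp_apply,
    ContinuousLinearEquiv.coe_coe, smul_eq_mul]
  ring

/-- the determinant factor -/
noncomputable def kap (n : ℕ) (s : ℝ) (A : En n ≃L[ℝ] En n) : ℝ :=
  (1 / s) ^ n * (linM (A : En n →L[ℝ] En n)).det ^ 2

lemma kap_pos {s : ℝ} (hs : 0 < s) (A : En n ≃L[ℝ] En n) : 0 < kap n s A := by
  have := (isUnit_det_linM A).ne_zero
  unfold kap
  positivity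

lemma two_le_inf_nf : (2 : WithTop ℕ∞) ≤ ∞ :=
  WithTop.coe_le_coe.2 (le_top : (2 : ℕ∞) ≤ ⊤)

lemma dt_nf {Ω : Set (En n)} {u : En n → ℝ} (hu : SC Ω u) (a p : En n) (s : ℝ)
    (A : En n ≃L[ℝ] En n) {y : En n} (hy : p + A y ∈ Ω) :
    dt (fun x => brg u a (p + A x) / s) y = kap n s A * dt u (p + A y) := by
  rw [nf_eq_chg]
  exact det_hess_chg hu.op (hu.sm.of_le two_le_inf_nf) hy

lemma sc_nf {Ω : Set (En n)} {u : En n → ℝ} (hu : SC Ω u) (a p : En n) {s : ℝ} (hs : 0 < s)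
    (A : En n ≃L[ℝ] En n) : SC {y | p + A y ∈ Ω} (fun x => brg u a (p + A x) / s) where
  op := isOpen_pre hu.op
  sm := by
    rw [nf_eq_chg]
    exact contDiffOn_chg (m := ⊤) (by exact_mod_cast hu.sm)
  pos := by
    intro y hy
    rw [nf_eq_chg]
    exact posDef_chg (by positivity) hu.op (hu.sm.of_le two_le_inf_nf) hy (hu.pos _ hy)

/-- Covariance of the linearised operator. -/
theorem Lop_nf {Ω : Set (En n)} {u : En n → ℝ} (hu : SC Ω u) (a p : En n) {s : ℝ} (hs : 0 < s)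
    (A : En n ≃L[ℝ] En n) {v : En n → ℝ} (hv : ContDiffOn ℝ ∞ v Ω) {y : En n}
    (hy : p + A y ∈ Ω) :
    Lop (fun x => brg u a (p + A x) / s) (fun x => v (p + A x)) y = s * Lop u v (p + A y) := by
  have h := L_chg (u := u) (c := 1 / s) (p := p) (A := A) (ℓ := nfLin u a s A)
    (d := -(1 / s) * (u a + fderiv ℝ u a (p - a))) (one_div_pos.2 hs).ne' hu.op
    (hu.sm.of_le two_le_inf_nf) (hv.of_le two_le_inf_nf) hy
    (isUnit_iff_ne_zero.2 (hu.pos _ hy).det_pos.ne')
  rw [← nf_eq_chg, one_div, inv_inv] at h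
  exact h

/-- Volume of a preimage. -/
theorem volume_nf (A : En n ≃L[ℝ] En n) (p : En n) (S : Set (En n)) :
    volume {y | p + A y ∈ S} =
      ENNReal.ofReal |(linM (A : En n →L[ℝ] En n)).det|⁻¹ * volume S := by
  have := volume_tr A p S
  simp only [add_comm _ p] at this
  exact this

/-- **Normalisation of a section.** -/
theorem exists_NF (hn : 0 < n) {Ω : Set (En n)} {u : En n → ℝ} (hu : SC Ω u) (hcv : Convex ℝ Ω)
    (hcomp : ∀ a ∈ Ω, ∀ t : ℝ, IsCompact {x | x ∈ Ω ∧ brg u a x ≤ t}) {m M : ℝ} (hm : 0 < m)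
    (hmM : ∀ x ∈ Ω, m ≤ dt u x ∧ dt u x ≤ M) {a : En n} (ha : a ∈ Ω) {t : ℝ} (ht : 0 < t) :
    ∃ (A : En n ≃L[ℝ] En n) (p : En n),
      H338.NF {y | p + A y ∈ Ω} (fun y => brg u a (p + A y) / (2 * t)) (A.symm (a - p))
        (johnC n) (kap n (2 * t) A * m) (kap n (2 * t) A * M) := by
  have ht2 : 0 < 2 * t := by positivity
  set K : Set (En n) := Sec Ω u a (2 * t) with hK
  have hKopen : IsOpen K := isOpen_Sec hu a (2 * t)
  have haK : a ∈ K := by
    refine ⟨ha, ?_⟩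
    have : brg u a a = 0 := by simp [brg]
    rw [this]; exact ht2
  have hKsub : K ⊆ {x | x ∈ Ω ∧ brg u a x ≤ 2 * t} := fun x hx => ⟨hx.1, hx.2.le⟩
  have hKb : Bornology.IsBounded K := (hcomp a ha (2 * t)).isBounded.subset hKsub
  have hKc : Convex ℝ K := by
    have : K = Sect Ω u a (2 * t) := by
      ext x
      simp only [hK, Sec, Sect, Set.mem_ofPred_eq, brg_eq_tilt]
    rw [this]
    exact convex_Sect hu.op hcv hu.sm hu.pos a (2 * t)
  have hcl : {x | x ∈ Ω ∧ brg u a x ≤ 2 * t} ⊆ closure K := by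
    rintro x ⟨hx, hxt⟩
    have h1 : Tendsto (fun s : ℝ => a + s • (x - a)) (𝓝[<] 1) (𝓝 x) := by
      have : Continuous (fun s : ℝ => a + s • (x - a)) := by fun_prop
      have h2 := (this.tendsto 1).mono_left (nhdsWithin_le_nhds (s := Set.Iio (1:ℝ)))
      simpa using h2
    apply mem_closure_of_tendsto h1
    have h3 : ∀ᶠ s : ℝ in 𝓝[<] 1, 0 < s ∧ s < 1 := Ioo_mem_nhdsLT zero_lt_one
    filter_upwards [h3] with s hs
    obtain ⟨h4, h5⟩ := brg_segment_le hu hcv ha hx hs.1.le hs.2.le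
    refine ⟨h4, ?_⟩
    have h6 : s * brg u a x ≤ s * (2 * t) := mul_le_mul_of_nonneg_left hxt hs.1.le
    have h7 : s * (2 * t) < 1 * (2 * t) := mul_lt_mul_of_pos_right hs.2 ht2
    linarith
  obtain ⟨A, p, h1, h2⟩ := exists_john hn hKc hKb ⟨a, by rwa [hKopen.interior_eq]⟩
  rw [hKopen.interior_eq] at h1
  refine ⟨A, p, ?_⟩
  have hAa : p + A (A.symm (a - p)) = a := by simp
  have hkap := kap_pos (n := n) ht2 A
  refine
    { sc := sc_nf hu a p ht2 A
      cv := convex_pre hcv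
      cpt := ?_
      nn := ?_
      x0m := ?_
      fx0 := ?_
      inn := ?_
      out := ?_
      mpos := mul_pos hkap hm
      hm := ?_
      hM := ?_ }
  · have h3 : {y | y ∈ {y | p + A y ∈ Ω} ∧ brg u a (p + A y) / (2 * t) ≤ 1} =
        (A.toHomeomorph.trans (Homeomorph.addLeft p)) ⁻¹' {x | x ∈ Ω ∧ brg u a x ≤ 2 * t} := by
      ext y
      simp only [Set.mem_ofPred_eq, Set.mem_preimage, Homeomorph.trans_apply,
        Homeomorph.coe_addLeft, div_le_one ht2]
      rfl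
    rw [h3]
    exact (Homeomorph.isCompact_preimage _).2 (hcomp a ha (2 * t))
  · intro y hy
    exact div_nonneg (brg_nonneg hu hcv ha hy) ht2.le
  · show p + A (A.symm (a - p)) ∈ Ω
    rw [hAa]; exact ha
  · show brg u a (p + A (A.symm (a - p))) / (2 * t) = 0
    rw [hAa]
    simp [brg]
  · intro y hy
    have h3 := h1 y (by rwa [mem_closedBall_zero_iff])
    exact ⟨h3.1, by rw [div_lt_one ht2]; exact h3.2⟩
  · intro y hy hy1
    have h3 : p + A y ∈ closure K := hcl ⟨hy, by rwa [div_le_one ht2] at hy1⟩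
    have h4 := h2 y h3
    rwa [mem_closedBall_zero_iff] at h4
  · intro y hy
    rw [dt_nf hu a p (2 * t) A hy]
    exact mul_le_mul_of_nonneg_left (hmM _ hy).1 hkap.le
  · intro y hy
    rw [dt_nf hu a p (2 * t) A hy]
    exact mul_le_mul_of_nonneg_left (hmM _ hy).2 hkap.le

end Vale.Agent.P252.H521
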