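import Vale.Agent.P252.MathlibUsed
import Mathlib.Analysis.Matrix.Order
import Vale.Agent.P252.Defs

/-! Matrix algebra for the Pogorelov estimate. -/

open Matrix

namespace Vale.Agent.P252.H521

variable {n : ℕ}

open scoped MatrixOrder in
lemma exists_factor {G : Matrix (Fin n) (Fin n) ℝ} (hG : G.PosSemidef) :
    ∃ B : Matrix (Fin n) (Fin n) ℝ, G = Bᵀ * B := by
  obtain ⟨a, ha⟩ := CStarAlgebra.nonneg_iff_eq_star_mul_self.mp hG.nonneg
  refine ⟨a, ?_⟩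
  rw [ha, Matrix.star_eq_conjTranspose, Matrix.conjTranspose_eq_transpose_of_trivial]

/-- `tr (G X G X) ≥ 0` for `G` positive semidefinite and `X` symmetric. -/
lemma trace_sq_nonneg {G X : Matrix (Fin n) (Fin n) ℝ} (hG : G.PosSemidef) (hX : Xᵀ = X) :
    0 ≤ (G * X * G * X).trace := by
  obtain ⟨B, hB⟩ := exists_factor hG
  have h1 : (G * X * G * X).trace = (B * X * G * (B * X)ᵀ).trace := by
    have e1 : G * X * G * X = Bᵀ * (B * X * G * X) := by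
      nth_rewrite 1 [hB]
      simp only [Matrix.mul_assoc]
    rw [e1, Matrix.trace_mul_comm, Matrix.transpose_mul, hX]
    simp only [Matrix.mul_assoc]
  rw [h1]
  have h2 : (B * X * G * (B * X)ᵀ).PosSemidef := by
    have := hG.mul_mul_conjTranspose_same (B * X)
    rwa [Matrix.conjTranspose_eq_transpose_of_trivial] at this
  exact h2.trace_nonneg

/-- `tr (G Y) ≤ 0` for `G` positive semidefinite and `-Y` positive semidefinite. -/
lemma trace_mul_nonneg {G Y : Matrix (Fin n) (Fin n) ℝ} (hG : G.PosSemidef)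
    (hY : Y.PosSemidef) : 0 ≤ (G * Y).trace := by
  obtain ⟨B, hB⟩ := exists_factor hG
  have h1 : (G * Y).trace = (B * Y * Bᵀ).trace := by
    rw [hB, Matrix.mul_assoc, Matrix.trace_mul_comm]
  rw [h1]
  have h2 : (B * Y * Bᵀ).PosSemidef := by
    have := hY.mul_mul_conjTranspose_same B
    rwa [Matrix.conjTranspose_eq_transpose_of_trivial] at this
  exact h2.trace_nonneg

/-- Cauchy-Schwarz: `(x·e)² ≤ (eᵀHe) (xᵀH⁻¹x)`. -/
lemma cs_inv {H : Matrix (Fin n) (Fin n) ℝ} (hH : H.PosDef) (e x : Fin n → ℝ) :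
    (x ⬝ᵥ e) ^ 2 ≤ (e ⬝ᵥ H *ᵥ e) * (x ⬝ᵥ H⁻¹ *ᵥ x) := by
  have hsymm : Hᵀ = H := by
    have := hH.isHermitian
    rwa [Matrix.IsHermitian, Matrix.conjTranspose_eq_transpose_of_trivial] at this
  have hdet : IsUnit H.det := by
    exact (Matrix.isUnit_iff_isUnit_det H).mp hH.isUnit
  have hG := hH.inv.posSemidef
  set G := H⁻¹ with hGdef
  have hGs : Gᵀ = G := by
    rw [hGdef, Matrix.transpose_nonsing_inv, hsymm]
  by_cases he : e = 0
  · subst he; simp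
  have ha : 0 < e ⬝ᵥ H *ᵥ e := by
    have := hH.dotProduct_mulVec_pos he
    simpa using this
  set a := e ⬝ᵥ H *ᵥ e with hadef
  -- `0 ≤ (x - (x·e/a) H e)ᵀ G (x - (x·e/a) H e)`
  have key := hG.dotProduct_mulVec_nonneg (x - ((x ⬝ᵥ e) / a) • (H *ᵥ e))
  have h3 : G *ᵥ (H *ᵥ e) = e := by
    rw [Matrix.mulVec_mulVec, hGdef, Matrix.nonsing_inv_mul _ hdet, Matrix.one_mulVec]
  have h4 : (H *ᵥ e) ⬝ᵥ (G *ᵥ x) = x ⬝ᵥ e := by
    rw [Matrix.dotProduct_mulVec, ← Matrix.mulVec_transpose, hGs, h3, dotProduct_comm]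
  have h5 : (H *ᵥ e) ⬝ᵥ e = a := by rw [dotProduct_comm]
  rw [star_trivial, Matrix.mulVec_sub, Matrix.mulVec_smul, h3, sub_dotProduct, dotProduct_sub,
    dotProduct_sub, smul_dotProduct, smul_dotProduct, dotProduct_smul, dotProduct_smul, h4, h5]
    at key
  simp only [smul_eq_mul] at key
  have h6 : 0 ≤ x ⬝ᵥ G *ᵥ x - (x ⬝ᵥ e) ^ 2 / a := by
    have : x ⬝ᵥ G *ᵥ x - x ⬝ᵥ e / a * (x ⬝ᵥ e) - (x ⬝ᵥ e / a * (x ⬝ᵥ e) - x ⬝ᵥ e / a * (x ⬝ᵥ e / a * a))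
        = x ⬝ᵥ G *ᵥ x - (x ⬝ᵥ e) ^ 2 / a := by
      field_simp
      ring
    rw [← this]; exact key
  have h7 : (x ⬝ᵥ e) ^ 2 / a ≤ x ⬝ᵥ G *ᵥ x := by linarith
  rw [div_le_iff₀ ha] at h7
  linarith [h7, mul_comm (x ⬝ᵥ G *ᵥ x) a]

lemma trace_vecMulVec_mul' (e : Fin n → ℝ) (Y : Matrix (Fin n) (Fin n) ℝ) :
    (Matrix.vecMulVec e e * Y).trace = e ⬝ᵥ Y *ᵥ e := by
  rw [Matrix.vecMulVec_mul, Matrix.trace_vecMulVec, dotProduct_comm, ← Matrix.dotProduct_mulVec]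

/-- The matrix inequality behind the Pogorelov estimate:
`a tr(GMGM) ≥ 2 (Me)ᵀG(Me) - (eᵀMe)²/a` with `G = H⁻¹`, `a = eᵀHe`. -/
lemma pogo_matrix {H M : Matrix (Fin n) (Fin n) ℝ} (hH : H.PosDef) (hM : Mᵀ = M)
    (e : Fin n → ℝ) (he : 0 < e ⬝ᵥ H *ᵥ e) :
    2 * ((M *ᵥ e) ⬝ᵥ H⁻¹ *ᵥ (M *ᵥ e)) / (e ⬝ᵥ H *ᵥ e) - (e ⬝ᵥ M *ᵥ e) ^ 2 / (e ⬝ᵥ H *ᵥ e) ^ 2
      ≤ (H⁻¹ * M * H⁻¹ * M).trace := by
  set a := e ⬝ᵥ H *ᵥ e with ha
  set G := H⁻¹ with hG
  have hGp := hH.inv.posSemidef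
  rw [← hG] at hGp
  set G' : Matrix (Fin n) (Fin n) ℝ := G - (1 / a) • Matrix.vecMulVec e e with hG'
  have hGs : Gᵀ = G := by
    have := hGp.isHermitian
    rwa [Matrix.IsHermitian, Matrix.conjTranspose_eq_transpose_of_trivial] at this
  have hG'p : G'.PosSemidef := by
    refine Matrix.PosSemidef.of_dotProduct_mulVec_nonneg ?_ ?_
    · rw [Matrix.IsHermitian, Matrix.conjTranspose_eq_transpose_of_trivial, hG',
        Matrix.transpose_sub, Matrix.transpose_smul, hGs, Matrix.transpose_vecMulVec]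
    · intro x
      rw [star_trivial, hG', Matrix.sub_mulVec, dotProduct_sub, Matrix.smul_mulVec,
        dotProduct_smul]
      have h1 : x ⬝ᵥ (Matrix.vecMulVec e e *ᵥ x) = (x ⬝ᵥ e) ^ 2 := by
        rw [Matrix.vecMulVec_mulVec]
        simp [dotProduct_comm e x, sq]
      rw [h1, smul_eq_mul]
      have h2 := cs_inv hH e x
      rw [← ha, ← hG] at h2
      have h3 : 1 / a * (x ⬝ᵥ e) ^ 2 ≤ x ⬝ᵥ G *ᵥ x := by
        rw [one_div, inv_mul_le_iff₀ he]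
        exact h2
      linarith
  have key := trace_sq_nonneg hG'p hM
  -- expand
  have e1 : (G' * M * G' * M).trace = (G * M * G * M).trace
      - (2 / a) * ((M *ᵥ e) ⬝ᵥ G *ᵥ (M *ᵥ e)) + (1 / a ^ 2) * (e ⬝ᵥ M *ᵥ e) ^ 2 := by
    have h0 : G' * M * G' * M = G * M * G * M
        - (1 / a) • (Matrix.vecMulVec e e * (M * G * M))
        - (1 / a) • (G * M * Matrix.vecMulVec e e * M)
        + (1 / a ^ 2) • (Matrix.vecMulVec e e * (M * Matrix.vecMulVec e e * M)) := by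
      rw [hG']
      simp only [Matrix.sub_mul, Matrix.mul_sub, Matrix.smul_mul, Matrix.mul_smul, smul_smul,
        smul_sub, Matrix.mul_assoc]
      have : (1 / a) * (1 / a) = 1 / a ^ 2 := by field_simp
      rw [this]
      abel
    have h1 : (G * M * Matrix.vecMulVec e e * M).trace
        = (Matrix.vecMulVec e e * (M * G * M)).trace := by
      rw [Matrix.mul_assoc, Matrix.trace_mul_comm]
      simp only [Matrix.mul_assoc]
    have h2 : (Matrix.vecMulVec e e * (M * G * M)).trace = (M *ᵥ e) ⬝ᵥ G *ᵥ (M *ᵥ e) := by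
      rw [trace_vecMulVec_mul', ← Matrix.mulVec_mulVec, ← Matrix.mulVec_mulVec,
        Matrix.dotProduct_mulVec, ← Matrix.mulVec_transpose, hM]
    have h3 : (Matrix.vecMulVec e e * (M * Matrix.vecMulVec e e * M)).trace
        = (e ⬝ᵥ M *ᵥ e) ^ 2 := by
      rw [trace_vecMulVec_mul', ← Matrix.mulVec_mulVec, ← Matrix.mulVec_mulVec,
        Matrix.dotProduct_mulVec, ← Matrix.mulVec_transpose, hM, Matrix.vecMulVec_mulVec]
      simp [dotProduct_comm (M *ᵥ e) e, sq]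
    rw [h0, Matrix.trace_add, Matrix.trace_sub, Matrix.trace_sub, Matrix.trace_smul,
      Matrix.trace_smul, Matrix.trace_smul, h1, h2, h3]
    simp only [smul_eq_mul]
    ring
  rw [e1] at key
  have e2 : 2 * ((M *ᵥ e) ⬝ᵥ G *ᵥ (M *ᵥ e)) / a - (e ⬝ᵥ M *ᵥ e) ^ 2 / a ^ 2
      = (2 / a) * ((M *ᵥ e) ⬝ᵥ G *ᵥ (M *ᵥ e)) - (1 / a ^ 2) * (e ⬝ᵥ M *ᵥ e) ^ 2 := by
    ring
  rw [e2]
  linarith

end Vale.Agent.P252.H521
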