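import Vale.Agent.P252.H521.Curve
import Vale.Agent.P252.H429.Base

/-! # The Pogorelov estimate

For a smooth `u` with positive definite Hessian and constant `det D²u` on a neighbourhood of the
compact set `K = {u ≤ h}`, and every vector `e`,
`(h - u) u_ee exp(u_e²/2) ≤ (n + B) exp(B²/2)` on `K`, where `B` bounds `|u_e|` on `K`. -/

open Matrix Filter Set
open scoped Topology ContDiff
open Vale.Agent.P252.H429

namespace Vale.Agent.P252.H521

variable {n : ℕ}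

lemma three_le_inf : (3 : WithTop ℕ∞) ≤ ∞ :=
  WithTop.coe_le_coe.2 (le_top : (3 : ℕ∞) ≤ ⊤)

lemma two_le_inf : (2 : WithTop ℕ∞) ≤ ∞ :=
  WithTop.coe_le_coe.2 (le_top : (2 : ℕ∞) ≤ ⊤)

/-- directional derivative -/
noncomputable def dd (e : EuclideanSpace ℝ (Fin n)) (f : EuclideanSpace ℝ (Fin n) → ℝ) :
    EuclideanSpace ℝ (Fin n) → ℝ := fun x => fderiv ℝ f x e

lemma dd_eq_sum (e : EuclideanSpace ℝ (Fin n)) (f : EuclideanSpace ℝ (Fin n) → ℝ)
    (x : EuclideanSpace ℝ (Fin n)) : dd e f x = ∑ k, e k * pd k f x :=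
  fderiv_apply_eq_sum e

lemma contDiffAt_dd {e : EuclideanSpace ℝ (Fin n)} {f : EuclideanSpace ℝ (Fin n) → ℝ}
    {x : EuclideanSpace ℝ (Fin n)} {m k : WithTop ℕ∞} (hf : ContDiffAt ℝ k f x)
    (hmk : m + 1 ≤ k) : ContDiffAt ℝ m (dd e f) x := by
  unfold dd
  exact (hf.fderiv_right (m := m) hmk).clm_apply contDiffAt_const

lemma contDiffOn_dd {e : EuclideanSpace ℝ (Fin n)} {f : EuclideanSpace ℝ (Fin n) → ℝ}
    {Ω : Set (EuclideanSpace ℝ (Fin n))} (hΩ : IsOpen Ω) (hf : ContDiffOn ℝ ∞ f Ω) :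
    ContDiffOn ℝ ∞ (dd e f) Ω := fun x hx =>
  (contDiffAt_dd (hf.contDiffAt (hΩ.mem_nhds hx)) (by simp)).contDiffWithinAt

lemma pd_dd {e : EuclideanSpace ℝ (Fin n)} {f : EuclideanSpace ℝ (Fin n) → ℝ}
    {x : EuclideanSpace ℝ (Fin n)} (hf : ContDiffAt ℝ 2 f x) (i : Fin n) :
    pd i (dd e f) x = dd e (pd i f) x := by
  have h1 : pd i (dd e f) x = pd i (fun y => ∑ k, e k * pd k f y) x :=
    pd_congr (Eventually.of_forall fun y => dd_eq_sum e f y) i
  rw [h1, pd_sum _ (fun k _ => (diff_pd hf k).const_mul _), dd_eq_sum]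
  refine Finset.sum_congr rfl fun k _ => ?_
  rw [pd_const_mul _ (diff_pd hf k), ← hess_apply, hess_symm hf, hess_apply]

lemma hess_dd {e : EuclideanSpace ℝ (Fin n)} {f : EuclideanSpace ℝ (Fin n) → ℝ}
    {x : EuclideanSpace ℝ (Fin n)} (hf : ContDiffAt ℝ 3 f x) (i j : Fin n) :
    hess (dd e f) x i j = dd e (fun y => hess f y i j) x := by
  have h2 : ContDiffAt ℝ 2 f x := hf.of_le (by norm_num)
  have h3 : ∀ᶠ y in 𝓝 x, ContDiffAt ℝ 2 f y := h2.eventually (by simp)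
  rw [hess_apply, pd_congr (h3.mono fun y hy => pd_dd hy j) i,
    pd_dd (contDiffAt_pd hf (by norm_num) j) i]
  rfl

lemma contDiffAt_hess {f : EuclideanSpace ℝ (Fin n) → ℝ}
    {x : EuclideanSpace ℝ (Fin n)} {m k l : WithTop ℕ∞} (hf : ContDiffAt ℝ k f x)
    (h1 : m + 1 ≤ l) (h2 : l + 1 ≤ k) (i j : Fin n) :
    ContDiffAt ℝ m (fun y => hess f y i j) x :=
  contDiffAt_pd (contDiffAt_pd hf h2 j) h1 i

lemma hasDerivAt_line {f : EuclideanSpace ℝ (Fin n) → ℝ} {x e : EuclideanSpace ℝ (Fin n)}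
    {t : ℝ} (hf : DifferentiableAt ℝ f (x + t • e)) :
    HasDerivAt (fun s : ℝ => f (x + s • e)) (dd e f (x + t • e)) t := by
  have h1 : HasDerivAt (fun s : ℝ => x + s • e) e t := by
    simpa using ((hasDerivAt_id t).smul_const e).const_add x
  exact hf.hasFDerivAt.comp_hasDerivAt t h1

/-- `u^{ij} u_{ije} = 0` and `u^{ij} u_{ijee} = tr(H⁻¹MH⁻¹M)`, `M = D²u_e`, when `det D²u` is
constant. -/
theorem const_det_identities {Ω : Set (EuclideanSpace ℝ (Fin n))} (hΩ : IsOpen Ω)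
    {u : EuclideanSpace ℝ (Fin n) → ℝ} (hu : ContDiffOn ℝ ∞ u Ω) {c : ℝ} (hc : c ≠ 0)
    (hdet : ∀ x ∈ Ω, (hess u x).det = c) (e : EuclideanSpace ℝ (Fin n))
    {x : EuclideanSpace ℝ (Fin n)} (hx : x ∈ Ω) :
    ((hess u x)⁻¹ * hess (dd e u) x).trace = 0 ∧
      ((hess u x)⁻¹ * hess (dd e (dd e u)) x).trace =
        ((hess u x)⁻¹ * hess (dd e u) x * (hess u x)⁻¹ * hess (dd e u) x).trace := by
  have hmem : ∀ᶠ t : ℝ in 𝓝 0, x + t • e ∈ Ω := by
    have hcont : ContinuousAt (fun t : ℝ => x + t • e) 0 := by fun_prop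
    apply hcont.eventually_mem
    simpa using hΩ.mem_nhds hx
  have hat : ∀ y ∈ Ω, ContDiffAt ℝ ∞ u y := fun y hy => hu.contDiffAt (hΩ.mem_nhds hy)
  have hue := contDiffOn_dd (e := e) hΩ hu
  have hat1 : ∀ y ∈ Ω, ContDiffAt ℝ ∞ (dd e u) y := fun y hy => hue.contDiffAt (hΩ.mem_nhds hy)
  have h0 : x + (0 : ℝ) • e = x := by simp
  have h1 : ∀ᶠ t in 𝓝 (0 : ℝ), ∀ i j, HasDerivAt (fun s : ℝ => hess u (x + s • e) i j)
      (hess (dd e u) (x + t • e) i j) t := by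
    filter_upwards [hmem] with t ht i j
    rw [hess_dd ((hat _ ht).of_le three_le_inf)]
    apply hasDerivAt_line (f := fun y => hess u y i j)
    exact (contDiffAt_hess (m := 1) (l := 2) (k := 3) ((hat _ ht).of_le three_le_inf) (by norm_num) (by norm_num) i j).differentiableAt (by simp)
  have h2 : ∀ i j, HasDerivAt (fun s : ℝ => hess (dd e u) (x + s • e) i j)
      (hess (dd e (dd e u)) x i j) 0 := by
    intro i j
    rw [hess_dd ((hat1 _ hx).of_le three_le_inf)]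
    have := hasDerivAt_line (f := fun y => hess (dd e u) y i j) (x := x) (e := e) (t := 0)
      (by
        rw [h0]
        exact (contDiffAt_hess (m := 1) (l := 2) (k := 3) ((hat1 _ hx).of_le three_le_inf) (by norm_num) (by norm_num) i j).differentiableAt (by simp))
    rwa [h0] at this
  have h3 := curve_trace (A := fun t => hess u (x + t • e))
    (A1 := fun t => hess (dd e u) (x + t • e)) (A2 := hess (dd e (dd e u)) x)
    h1 h2 hc (hmem.mono fun t ht => hdet _ ht)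
  simpa using h3

/-! ### the maximum point -/

/-- algebra at the maximum point -/
lemma max_algebra {T N2 q a b w nn : ℝ} (ha : 0 < a) (hw : 0 < w)
    (hmat : 2 * N2 / a - q ^ 2 / a ^ 2 ≤ T)
    (hfirst : b / w = q / a + b * a)
    (hL : -nn / w - (N2 / a ^ 2 + 2 * b * q / a + b ^ 2 * a) + (T / a - N2 / a ^ 2) + a ≤ 0) :
    (w * a) ^ 2 ≤ nn * (w * a) + b ^ 2 := by
  have h1 : 2 * N2 / a ^ 2 - q ^ 2 / a ^ 3 ≤ T / a := by
    have := div_le_div_of_nonneg_right hmat ha.le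
    have e : (2 * N2 / a - q ^ 2 / a ^ 2) / a = 2 * N2 / a ^ 2 - q ^ 2 / a ^ 3 := by
      field_simp
    rwa [e] at this
  have h2 : -nn / w - (2 * b * q / a + b ^ 2 * a) - q ^ 2 / a ^ 3 + a ≤ 0 := by
    have e : 2 * N2 / a ^ 2 = N2 / a ^ 2 + N2 / a ^ 2 := by ring
    linarith
  have h3 : q ^ 2 / a ^ 3 + 2 * b * q / a + b ^ 2 * a = (b / w) ^ 2 / a := by
    rw [hfirst]
    field_simp
    ring
  have h4 : -nn / w - (b / w) ^ 2 / a + a ≤ 0 := by linarith
  have h5 : (w * a) ^ 2 - nn * (w * a) - b ^ 2 = (-nn / w - (b / w) ^ 2 / a + a) * (a * w ^ 2) := by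
    field_simp
    ring
  have h6 : (-nn / w - (b / w) ^ 2 / a + a) * (a * w ^ 2) ≤ 0 :=
    mul_nonpos_of_nonpos_of_nonneg h4 (by positivity)
  linarith

lemma le_of_sq_le {m b B : ℝ} {k : ℕ} (hb : |b| ≤ B)
    (h : m ^ 2 ≤ k * m + b ^ 2) : m ≤ k + B := by
  by_contra hcon
  push Not at hcon
  have hB : 0 ≤ B := (abs_nonneg b).trans hb
  have h1 : b ^ 2 ≤ B ^ 2 := by
    rw [← sq_abs b]
    exact pow_le_pow_left₀ (abs_nonneg b) hb 2
  have hk : (0 : ℝ) ≤ k := Nat.cast_nonneg k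
  nlinarith [mul_nonneg hk hB, mul_pos (show (0:ℝ) < m - (k + B) by linarith) (show (0:ℝ) < m by linarith)]

lemma sum_eq_trace (G Y : Matrix (Fin n) (Fin n) ℝ) (hY : Yᵀ = Y) :
    ∑ i, ∑ j, G i j * Y i j = (G * Y).trace := by
  simp only [Matrix.trace, Matrix.diag, Matrix.mul_apply]
  refine Finset.sum_congr rfl fun i _ => Finset.sum_congr rfl fun j _ => ?_
  rw [← congrFun (congrFun hY j) i]
  rfl

lemma sum_eq_dot (G : Matrix (Fin n) (Fin n) ℝ) (x y : Fin n → ℝ) :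
    ∑ i, ∑ j, G i j * (x i * y j) = x ⬝ᵥ (G *ᵥ y) := by
  simp only [dotProduct, Matrix.mulVec, Finset.mul_sum]
  refine Finset.sum_congr rfl fun i _ => Finset.sum_congr rfl fun j _ => ?_
  ring

theorem pogorelov_at_max {Ω : Set (EuclideanSpace ℝ (Fin n))} (hΩ : IsOpen Ω)
    {u : EuclideanSpace ℝ (Fin n) → ℝ} (hu : ContDiffOn ℝ ∞ u Ω)
    (hpd : ∀ x ∈ Ω, (hess u x).PosDef) {c : ℝ}
    (hdet : ∀ x ∈ Ω, (hess u x).det = c) (e : EuclideanSpace ℝ (Fin n)) (h : ℝ)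
    {x : EuclideanSpace ℝ (Fin n)} (hx : x ∈ Ω) (hxh : u x < h) (ha : 0 < dd e (dd e u) x)
    (hmax : IsLocalMax (fun y => (Real.log (h - u y) + Real.log (dd e (dd e u) y))
      + (dd e u y) ^ 2 / 2) x) :
    ((h - u x) * dd e (dd e u) x) ^ 2 ≤ n * ((h - u x) * dd e (dd e u) x) + (dd e u x) ^ 2 := by
  have hat : ContDiffAt ℝ ∞ u x := hu.contDiffAt (hΩ.mem_nhds hx)
  have hue := contDiffOn_dd (e := e) hΩ hu
  have hat1 : ContDiffAt ℝ ∞ (dd e u) x := hue.contDiffAt (hΩ.mem_nhds hx)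
  have hat2 : ContDiffAt ℝ ∞ (dd e (dd e u)) x :=
    (contDiffOn_dd (e := e) hΩ hue).contDiffAt (hΩ.mem_nhds hx)
  have h2 : ContDiffAt ℝ 2 u x := hat.of_le two_le_inf
  have h21 : ContDiffAt ℝ 2 (dd e u) x := hat1.of_le two_le_inf
  have h22 : ContDiffAt ℝ 2 (dd e (dd e u)) x := hat2.of_le two_le_inf
  have hc : c ≠ 0 := by
    rw [← hdet x hx]
    exact (hpd x hx).det_pos.ne'
  obtain ⟨hid1, hid2⟩ := const_det_identities hΩ hu hc hdet e hx
  set H := hess u x with hH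
  set M := hess (dd e u) x with hM
  set N := hess (dd e (dd e u)) x with hN
  have hHp : H.PosDef := hpd x hx
  have hHs : Hᵀ = H := by ext i j; exact hess_symm h2 j i
  have hMs : Mᵀ = M := by ext i j; exact hess_symm h21 j i
  have hNs : Nᵀ = N := by ext i j; exact hess_symm h22 j i
  have hHu : IsUnit H.det := (Matrix.isUnit_iff_isUnit_det H).mp hHp.isUnit
  set G := H⁻¹ with hG
  have hGp : G.PosSemidef := hHp.inv.posSemidef
  have hGs : Gᵀ = G := by rw [hG, Matrix.transpose_nonsing_inv, hHs]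
  set ev : Fin n → ℝ := fun i => e i with hev
  set w := h - u x with hw
  have hw0 : 0 < w := by rw [hw]; linarith
  set a := dd e (dd e u) x with hadef
  set b := dd e u x with hbdef
  set du : Fin n → ℝ := fun i => pd i u x with hdu
  -- first derivatives
  have hHe : ∀ i, pd i (dd e u) x = (H *ᵥ ev) i := by
    intro i
    rw [pd_dd h2, dd_eq_sum]
    simp only [Matrix.mulVec, dotProduct, hev]
    refine Finset.sum_congr rfl fun k _ => ?_
    rw [← hess_apply, ← hH]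
    have : H k i = H i k := hess_symm h2 k i
    rw [this]; ring
  have hMe : ∀ i, pd i (dd e (dd e u)) x = (M *ᵥ ev) i := by
    intro i
    rw [pd_dd h21, dd_eq_sum]
    simp only [Matrix.mulVec, dotProduct, hev]
    refine Finset.sum_congr rfl fun k _ => ?_
    rw [← hess_apply, ← hM]
    have : M k i = M i k := hess_symm h21 k i
    rw [this]; ring
  have haH : a = ev ⬝ᵥ H *ᵥ ev := by
    rw [hadef, dd_eq_sum]
    simp only [dotProduct]
    exact Finset.sum_congr rfl fun k _ => by rw [hHe k]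
  have hbu : b = ev ⬝ᵥ du := by
    rw [hbdef, dd_eq_sum]
    rfl
  -- the three pieces
  have hf1 : ContDiffAt ℝ 2 (fun y => h - u y) x := contDiffAt_const.sub h2
  have hlog : ∀ {f : EuclideanSpace ℝ (Fin n) → ℝ}, 0 < f x → ∀ᶠ t in 𝓝 (f x),
      HasDerivAt Real.log (t⁻¹) t := fun {f} hf => by
    filter_upwards [eventually_ne_nhds hf.ne'] with t ht using Real.hasDerivAt_log ht
  have hlog' : ∀ {s : ℝ}, 0 < s → HasDerivAt (fun t : ℝ => t⁻¹) (-(s ^ 2)⁻¹) s := fun {s} hs =>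
    _root_.hasDerivAt_inv hs.ne'
  have hL1 : ContDiffAt ℝ 2 (fun y => Real.log (h - u y)) x := hf1.log hw0.ne'
  have hL2 : ContDiffAt ℝ 2 (fun y => Real.log (dd e (dd e u) y)) x := h22.log ha.ne'
  have hL3 : ContDiffAt ℝ 2 (fun y => (dd e u y) ^ 2 / 2) x := (h21.pow 2).div_const 2
  have hsq : ∀ᶠ t in 𝓝 (dd e u x), HasDerivAt (fun t : ℝ => t ^ 2 / 2) t t := by
    refine Eventually.of_forall fun t => ?_
    have := (hasDerivAt_pow 2 t).div_const 2
    simpa using this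
  have hp1 : ∀ i, pd i (fun y => h - u y) x = - du i := by
    intro i
    rw [pd_sub (differentiableAt_const _) (h2.differentiableAt (by simp)), pd_const]
    simp [hdu]
  have hh1 : ∀ i j, hess (fun y => h - u y) x i j = - H i j := by
    intro i j
    rw [hess_sub contDiffAt_const h2]
    have : hess (fun _ : EuclideanSpace ℝ (Fin n) => h) x i j = 0 := by
      rw [hess_apply]
      have : pd i (pd j (fun _ : EuclideanSpace ℝ (Fin n) => h)) x = pd i (fun _ => (0:ℝ)) x :=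
        pd_congr (Eventually.of_forall fun y => pd_const h j) i
      rw [this, pd_const]
    rw [this]; simp [hH]
  -- first order condition
  have hfirst : ∀ i, - du i / w + (M *ᵥ ev) i / a + b * (H *ᵥ ev) i = 0 := by
    intro i
    have h0 := pd_eq_zero_of_isLocalMax hmax i
    rw [pd_add ((hL1.add hL2).differentiableAt (by simp)) (hL3.differentiableAt (by simp)),
      pd_add (hL1.differentiableAt (by simp)) (hL2.differentiableAt (by simp)),
      pd_comp (φ := Real.log) (f := fun y => h - u y) (Real.hasDerivAt_log hw0.ne')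
        (hf1.differentiableAt (by simp)),
      pd_comp (φ := Real.log) (f := dd e (dd e u)) (Real.hasDerivAt_log ha.ne')
        (h22.differentiableAt (by simp)),
      pd_comp (φ := fun t => t ^ 2 / 2) (f := dd e u) hsq.self_of_nhds
        (h21.differentiableAt (by simp)), hp1, hMe, hHe] at h0
    rw [← h0]
    simp only [hw, hadef, hbdef]
    ring
  -- second order condition
  have hsecond := sum_mul_hess_nonpos hGp ((hL1.add hL2).add hL3) hmax
  have hhess : ∀ i j, hess (fun y => (Real.log (h - u y) + Real.log (dd e (dd e u) y))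
      + (dd e u y) ^ 2 / 2) x i j =
      (w⁻¹ * (- H i j) + -(w ^ 2)⁻¹ * (du i * du j)) + (a⁻¹ * N i j
        + -(a ^ 2)⁻¹ * ((M *ᵥ ev) i * (M *ᵥ ev) j)) +
      (b * M i j + (H *ᵥ ev) i * (H *ᵥ ev) j) := by
    intro i j
    rw [hess_add (hL1.add hL2) hL3, hess_add hL1 hL2,
      hess_comp (φ := Real.log) (φ' := fun t => t⁻¹) (f := fun y => h - u y)
        (hlog (f := fun y => h - u y) hw0)
        (hlog' hw0) hf1,
      hess_comp (φ := Real.log) (φ' := fun t => t⁻¹) (f := dd e (dd e u))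
        (hlog (f := dd e (dd e u)) ha)
        (hlog' ha) h22,
      hess_comp (φ := fun t => t ^ 2 / 2) (φ' := fun t => t) (f := dd e u) hsq
        (hasDerivAt_id _) h21, hp1, hp1, hh1, hMe, hMe, hHe, hHe]
    ring
  have hexp : ∑ i, ∑ j, G i j * hess (fun y => (Real.log (h - u y)
      + Real.log (dd e (dd e u) y)) + (dd e u y) ^ 2 / 2) x i j =
      -w⁻¹ * (G * H).trace + -(w ^ 2)⁻¹ * (du ⬝ᵥ G *ᵥ du) + (a⁻¹ * (G * N).trace
        + -(a ^ 2)⁻¹ * ((M *ᵥ ev) ⬝ᵥ G *ᵥ (M *ᵥ ev))) +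
      (b * (G * M).trace + (H *ᵥ ev) ⬝ᵥ G *ᵥ (H *ᵥ ev)) := by
    rw [← sum_eq_trace G H hHs, ← sum_eq_trace G N hNs, ← sum_eq_trace G M hMs, ← sum_eq_dot,
      ← sum_eq_dot, ← sum_eq_dot]
    simp only [hhess, Finset.mul_sum, ← Finset.sum_add_distrib]
    refine Finset.sum_congr rfl fun i _ => Finset.sum_congr rfl fun j _ => ?_
    ring
  rw [hexp] at hsecond
  have hGH : (G * H).trace = n := by
    rw [hG, Matrix.nonsing_inv_mul _ hHu, Matrix.trace_one]
    simp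
  have hGHe : G *ᵥ (H *ᵥ ev) = ev := by
    rw [Matrix.mulVec_mulVec, hG, Matrix.nonsing_inv_mul _ hHu, Matrix.one_mulVec]
  have hHeHe : (H *ᵥ ev) ⬝ᵥ G *ᵥ (H *ᵥ ev) = a := by
    rw [hGHe, dotProduct_comm, haH]
  set q := ev ⬝ᵥ M *ᵥ ev with hq
  set N2 := (M *ᵥ ev) ⬝ᵥ G *ᵥ (M *ᵥ ev) with hN2
  have hHeMe : (H *ᵥ ev) ⬝ᵥ G *ᵥ (M *ᵥ ev) = q := by
    rw [Matrix.dotProduct_mulVec, ← Matrix.mulVec_transpose, hGs, hGHe]
  have hMeHe : (M *ᵥ ev) ⬝ᵥ G *ᵥ (H *ᵥ ev) = q := by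
    rw [hGHe, dotProduct_comm]
  have hdu' : du = w • ((1 / a) • (M *ᵥ ev) + b • (H *ᵥ ev)) := by
    funext i
    have := hfirst i
    simp only [Pi.smul_apply, Pi.add_apply, smul_eq_mul]
    have hw' := hw0.ne'
    field_simp at this ⊢
    linarith
  have hdudu : du ⬝ᵥ G *ᵥ du = w ^ 2 * (N2 / a ^ 2 + 2 * b * q / a + b ^ 2 * a) := by
    rw [hdu']
    simp only [Matrix.mulVec_smul, Matrix.mulVec_add, dotProduct_smul, smul_dotProduct,
      dotProduct_add, add_dotProduct, smul_eq_mul]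
    rw [hHeHe, hHeMe, hMeHe, ← hN2]
    field_simp
    ring
  have hfirst' : b / w = q / a + b * a := by
    have : b = w * (q / a + b * a) := by
      nth_rewrite 1 [hbu]
      rw [hdu']
      simp only [dotProduct_smul, dotProduct_add, smul_eq_mul]
      rw [← hq, ← haH]
      ring
    rw [div_eq_iff hw0.ne']
    linarith
  have hmat := pogo_matrix hHp hMs ev (by rw [← haH]; exact ha)
  rw [← haH, ← hG, ← hN2, ← hq] at hmat
  refine max_algebra (T := (G * M * G * M).trace) (N2 := N2) (q := q) ha hw0 hmat hfirst' ?_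
  rw [hGH, hdudu, hid2, hid1, hHeHe] at hsecond
  have e1 : -(w ^ 2)⁻¹ * (w ^ 2 * (N2 / a ^ 2 + 2 * b * q / a + b ^ 2 * a))
      = -(N2 / a ^ 2 + 2 * b * q / a + b ^ 2 * a) := by
    field_simp
  rw [e1] at hsecond
  have e2 : -w⁻¹ * (n : ℝ) = -(n : ℝ) / w := by ring
  have e3 : a⁻¹ * (G * M * G * M).trace + -(a ^ 2)⁻¹ * N2
      = (G * M * G * M).trace / a - N2 / a ^ 2 := by ring
  rw [e2, e3] at hsecond
  linarith

/-- `u_ee` is the Hessian form. -/
lemma dd_dd_eq {u : EuclideanSpace ℝ (Fin n) → ℝ} {x : EuclideanSpace ℝ (Fin n)}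
    (hu : ContDiffAt ℝ 2 u x) (e : EuclideanSpace ℝ (Fin n)) :
    dd e (dd e u) x = ∑ i, ∑ j, hess u x i j * e i * e j := by
  rw [dd_eq_sum]
  refine Finset.sum_congr rfl fun i _ => ?_
  rw [pd_dd hu, dd_eq_sum, Finset.mul_sum]
  refine Finset.sum_congr rfl fun j _ => ?_
  rw [← hess_apply, hess_symm hu j i]
  ring

/-- **Pogorelov's estimate.** -/
theorem pogorelov {Ω : Set (EuclideanSpace ℝ (Fin n))} (hΩ : IsOpen Ω)
    {u : EuclideanSpace ℝ (Fin n) → ℝ} (hu : ContDiffOn ℝ ∞ u Ω)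
    (hpd : ∀ x ∈ Ω, (hess u x).PosDef) {c : ℝ}
    (hdet : ∀ x ∈ Ω, (hess u x).det = c) {h : ℝ} (hK : IsCompact {x ∈ Ω | u x ≤ h})
    (e : EuclideanSpace ℝ (Fin n)) {B : ℝ} (hB : ∀ x ∈ Ω, u x ≤ h → |dd e u x| ≤ B)
    {x : EuclideanSpace ℝ (Fin n)} (hx : x ∈ Ω) (hxh : u x ≤ h) :
    (h - u x) * dd e (dd e u) x * Real.exp ((dd e u x) ^ 2 / 2) ≤ (n + B) * Real.exp (B ^ 2 / 2) := by
  have hue := contDiffOn_dd (e := e) hΩ hu
  have huee := contDiffOn_dd (e := e) hΩ hue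
  have hB0 : 0 ≤ B := (abs_nonneg _).trans (hB x hx hxh)
  set ψ : EuclideanSpace ℝ (Fin n) → ℝ := fun y =>
    (h - u y) * dd e (dd e u) y * Real.exp ((dd e u y) ^ 2 / 2) with hψ
  have hψc : ContinuousOn ψ {x ∈ Ω | u x ≤ h} := by
    have h1 : ContinuousOn ψ Ω :=
      ((continuousOn_const.sub hu.continuousOn).mul huee.continuousOn).mul
        (Real.continuous_exp.comp_continuousOn ((hue.continuousOn.pow 2).div_const 2))
    exact h1.mono fun y hy => hy.1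
  obtain ⟨x₀, hx₀, hmax⟩ := hK.exists_isMaxOn ⟨x, hx, hxh⟩ hψc
  have h1 : ψ x ≤ ψ x₀ := hmax ⟨hx, hxh⟩
  have hR : 0 ≤ (n + B) * Real.exp (B ^ 2 / 2) := by positivity
  rcases le_or_gt (ψ x₀) 0 with h0 | h0
  · exact (h1.trans h0).trans hR
  have hw : 0 ≤ h - u x₀ := by linarith [hx₀.2]
  have hprod : 0 < (h - u x₀) * dd e (dd e u) x₀ := pos_of_mul_pos_left h0 (Real.exp_pos _).le
  have hw0 : 0 < h - u x₀ := lt_of_le_of_ne hw fun h => by rw [← h] at hprod; simp at hprod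
  have ha0 : 0 < dd e (dd e u) x₀ := pos_of_mul_pos_right hprod hw
  have hlm : IsLocalMax (fun y => (Real.log (h - u y) + Real.log (dd e (dd e u) y))
      + (dd e u y) ^ 2 / 2) x₀ := by
    have hnh := hΩ.mem_nhds hx₀.1
    have c1 : ContinuousAt u x₀ := hu.continuousOn.continuousAt hnh
    have c2 : ContinuousAt (dd e (dd e u)) x₀ := huee.continuousOn.continuousAt hnh
    have ev1 : ∀ᶠ y in 𝓝 x₀, u y < h := c1.eventually_lt continuousAt_const (by linarith)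
    have ev2 : ∀ᶠ y in 𝓝 x₀, 0 < dd e (dd e u) y := continuousAt_const.eventually_lt c2 ha0
    have hlogψ : ∀ y, u y < h → 0 < dd e (dd e u) y → (Real.log (h - u y)
        + Real.log (dd e (dd e u) y)) + (dd e u y) ^ 2 / 2 = Real.log (ψ y) := by
      intro y hy1 hy2
      have hy3 : 0 < h - u y := by linarith
      rw [hψ, Real.log_mul (mul_pos hy3 hy2).ne' (Real.exp_pos _).ne', Real.log_exp,
        Real.log_mul hy3.ne' hy2.ne']
    filter_upwards [hnh, ev1, ev2] with y hy hy1 hy2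
    rw [hlogψ y hy1 hy2, hlogψ x₀ (by linarith) ha0]
    apply Real.log_le_log
    · exact mul_pos (mul_pos (by linarith) hy2) (Real.exp_pos _)
    · exact hmax ⟨hy, hy1.le⟩
  have key := pogorelov_at_max hΩ hu hpd hdet e h hx₀.1 (by linarith) ha0 hlm
  have hm := le_of_sq_le (hB x₀ hx₀.1 hx₀.2) key
  refine h1.trans ?_
  have hb2 : (dd e u x₀) ^ 2 ≤ B ^ 2 := by
    rw [← sq_abs]
    exact pow_le_pow_left₀ (abs_nonneg _) (hB x₀ hx₀.1 hx₀.2) 2
  calc ψ x₀ = (h - u x₀) * dd e (dd e u) x₀ * Real.exp ((dd e u x₀) ^ 2 / 2) := rfl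
    _ ≤ (n + B) * Real.exp (B ^ 2 / 2) := by
      apply mul_le_mul hm (Real.exp_le_exp.2 (by linarith)) (Real.exp_pos _).le (by positivity)

lemma dd_smul (t : ℝ) (e : EuclideanSpace ℝ (Fin n)) (f : EuclideanSpace ℝ (Fin n) → ℝ)
    (x : EuclideanSpace ℝ (Fin n)) : dd (t • e) f x = t * dd e f x := by
  unfold dd
  rw [map_smul, smul_eq_mul]

lemma dd_dd_smul {u : EuclideanSpace ℝ (Fin n) → ℝ} {x : EuclideanSpace ℝ (Fin n)}
    (hu : ContDiffAt ℝ 2 u x) (t : ℝ) (e : EuclideanSpace ℝ (Fin n)) :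
    dd (t • e) (dd (t • e) u) x = t ^ 2 * dd e (dd e u) x := by
  rw [dd_dd_eq hu, dd_dd_eq hu, Finset.mul_sum]
  refine Finset.sum_congr rfl fun i _ => ?_
  rw [Finset.mul_sum]
  refine Finset.sum_congr rfl fun j _ => ?_
  simp only [PiLp.smul_apply, smul_eq_mul]
  ring

/-- **Pogorelov's estimate**, scale invariant form: `(h - u) u_ee ≤ (n + 1) √e B²` if `|u_e| ≤ B`
on the compact set `{u ≤ h}`. -/
theorem pogorelov' {Ω : Set (EuclideanSpace ℝ (Fin n))} (hΩ : IsOpen Ω)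
    {u : EuclideanSpace ℝ (Fin n) → ℝ} (hu : ContDiffOn ℝ ∞ u Ω)
    (hpd : ∀ x ∈ Ω, (hess u x).PosDef) {c : ℝ}
    (hdet : ∀ x ∈ Ω, (hess u x).det = c) {h : ℝ} (hK : IsCompact {x ∈ Ω | u x ≤ h})
    (e : EuclideanSpace ℝ (Fin n)) {B : ℝ} (hB0 : 0 < B)
    (hB : ∀ x ∈ Ω, u x ≤ h → |dd e u x| ≤ B)
    {x : EuclideanSpace ℝ (Fin n)} (hx : x ∈ Ω) (hxh : u x ≤ h) :
    (h - u x) * dd e (dd e u) x ≤ (n + 1) * Real.exp (1 / 2) * B ^ 2 := by
  have h2 : ContDiffAt ℝ 2 u x := (hu.contDiffAt (hΩ.mem_nhds hx)).of_le two_le_inf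
  have h3 := pogorelov hΩ hu hpd hdet hK (B⁻¹ • e) (B := 1) (fun y hy hyh => by
    rw [dd_smul, abs_mul, abs_inv, abs_of_pos hB0, inv_mul_le_iff₀ hB0, mul_one]
    exact hB y hy hyh) hx hxh
  have huee0 : 0 ≤ dd e (dd e u) x := by
    rw [dd_dd_eq h2]
    have := (hpd x hx).posSemidef.dotProduct_mulVec_nonneg (fun i => e i)
    simp only [star_trivial, dotProduct, Matrix.mulVec, Finset.mul_sum] at this
    refine this.trans (le_of_eq ?_)
    exact Finset.sum_congr rfl fun i _ => Finset.sum_congr rfl fun j _ => by ring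
  rw [dd_dd_smul h2] at h3
  have h4 : (h - u x) * ((B⁻¹) ^ 2 * dd e (dd e u) x) ≤
      (h - u x) * ((B⁻¹) ^ 2 * dd e (dd e u) x) * Real.exp ((dd (B⁻¹ • e) u x) ^ 2 / 2) := by
    apply le_mul_of_one_le_right
    · exact mul_nonneg (by linarith) (by positivity)
    · exact Real.one_le_exp (by positivity)
  have h5 := h4.trans h3
  have h6 : (h - u x) * ((B⁻¹) ^ 2 * dd e (dd e u) x) = (h - u x) * dd e (dd e u) x / B ^ 2 := by
    field_simp
  rw [h6, div_le_iff₀ (by positivity)] at h5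
  simpa using h5

/-- `u^{ij} ∂_ij u_ee ≥ 0` when `det D²u` is constant. -/
theorem L_uee_nonneg {Ω : Set (EuclideanSpace ℝ (Fin n))} (hΩ : IsOpen Ω)
    {u : EuclideanSpace ℝ (Fin n) → ℝ} (hu : ContDiffOn ℝ ∞ u Ω)
    (hpd : ∀ x ∈ Ω, (hess u x).PosDef) {c : ℝ}
    (hdet : ∀ x ∈ Ω, (hess u x).det = c) (e : EuclideanSpace ℝ (Fin n))
    {x : EuclideanSpace ℝ (Fin n)} (hx : x ∈ Ω) :
    0 ≤ ∑ i, ∑ j, (hess u x)⁻¹ i j * hess (dd e (dd e u)) x i j := by
  have hc : c ≠ 0 := by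
    rw [← hdet x hx]
    exact (hpd x hx).det_pos.ne'
  obtain ⟨-, hid2⟩ := const_det_identities hΩ hu hc hdet e hx
  have hue := contDiffOn_dd (e := e) hΩ hu
  have huee := contDiffOn_dd (e := e) hΩ hue
  have h21 : ContDiffAt ℝ 2 (dd e u) x := (hue.contDiffAt (hΩ.mem_nhds hx)).of_le two_le_inf
  have h22 : ContDiffAt ℝ 2 (dd e (dd e u)) x :=
    (huee.contDiffAt (hΩ.mem_nhds hx)).of_le two_le_inf
  have hMs : (hess (dd e u) x)ᵀ = hess (dd e u) x := by ext i j; exact hess_symm h21 j i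
  have hNs : (hess (dd e (dd e u)) x)ᵀ = hess (dd e (dd e u)) x := by
    ext i j; exact hess_symm h22 j i
  rw [sum_eq_trace _ _ hNs, hid2]
  exact trace_sq_nonneg (hpd x hx).inv.posSemidef hMs

end Vale.Agent.P252.H521
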